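import Vale.Agent.P216.Basic

/-! P216B Basic: internal definitions (FROZEN, owner helper98).  Isometric flows. -/

open Set Filter Topology

noncomputable section

namespace Vale.Agent.P216

variable {X : Type} [MetricSpace X]

/-- Short segments extend to lines which minimise on intervals of length two. -/
def Ext (X : Type) [MetricSpace X] : Prop :=
  ∃ ε > 0, ∀ x y : X, dist x y ≤ ε → ∃ γ : ℝ → X, γ 0 = x ∧ γ 1 = y ∧
    ∀ s t, |s - t| ≤ 2 → dist (γ s) (γ t) = dist x y * |s - t|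

/-- Displacement at most `r`. -/
def Sm (r : ℝ) (a : X ≃ᵢ X) : Prop := ∀ x, dist x (a x) ≤ r

/-- Squaring doubles small displacements. -/
def Dbl (X : Type) [MetricSpace X] : Prop :=
  ∃ ε > 0, ∀ (a : X ≃ᵢ X) (r : ℝ), Sm ε a → Sm r (a * a) → Sm (r / 2) a

/-- Uniformly closed groups of isometries. -/
def Cl (H : Subgroup (X ≃ᵢ X)) : Prop :=
  ∀ a : X ≃ᵢ X, (∀ η > 0, ∃ b ∈ H, ∀ x, dist (a x) (b x) ≤ η) → a ∈ H

/-- Isometric flows. -/
structure MFlow (ψ : ℝ → X → X) : Prop where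
  zero : ∀ x, ψ 0 x = x
  add : ∀ s t x, ψ (s + t) x = ψ s (ψ t x)
  cont : ∀ x, Continuous fun t => ψ t x
  iso : ∀ t, Isometry (ψ t)

/-- The time `t` map as an element of the isometry group. -/
def MFlow.e {ψ : ℝ → X → X} (h : MFlow ψ) (t : ℝ) : X ≃ᵢ X where
  toFun := ψ t
  invFun := ψ (-t)
  left_inv x := by rw [← h.add, neg_add_cancel, h.zero]
  right_inv x := by rw [← h.add, add_neg_cancel, h.zero]
  isometry_toFun := h.iso t

theorem MFlow.e_apply {ψ : ℝ → X → X} (h : MFlow ψ) (t : ℝ) (x : X) : h.e t x = ψ t x := rfl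

theorem MFlow.e_zero {ψ : ℝ → X → X} (h : MFlow ψ) : h.e 0 = 1 :=
  IsometryEquiv.ext fun x => h.zero x

theorem MFlow.e_add {ψ : ℝ → X → X} (h : MFlow ψ) (s t : ℝ) : h.e (s + t) = h.e s * h.e t :=
  IsometryEquiv.ext fun x => h.add s t x

theorem MFlow.e_neg {ψ : ℝ → X → X} (h : MFlow ψ) (t : ℝ) : h.e (-t) = (h.e t)⁻¹ :=
  eq_inv_of_mul_eq_one_left (by rw [← h.e_add, neg_add_cancel, h.e_zero])

theorem MFlow.e_nsmul {ψ : ℝ → X → X} (h : MFlow ψ) (t : ℝ) (m : ℕ) : h.e (m * t) = h.e t ^ m := by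
  induction m with
  | zero => rw [Nat.cast_zero, zero_mul, h.e_zero, pow_zero]
  | succ m ih => rw [Nat.cast_succ, add_mul, one_mul, h.e_add, ih, pow_succ]

/-- The isometries acting on every closed local geodesic by a translation. -/
def TrG (X : Type) [MetricSpace X] : Subgroup (X ≃ᵢ X) where
  carrier := {a | ∀ γ : ℝ → X, CG γ → ∃ b, ∀ t, a (γ t) = γ (t + b)}
  one_mem' := fun γ _ => ⟨0, fun t => by rw [add_zero]; rfl⟩
  mul_mem' := by
    intro a a' ha ha' γ hγ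
    obtain ⟨b, hb⟩ := ha γ hγ
    obtain ⟨b', hb'⟩ := ha' γ hγ
    exact ⟨b' + b, fun t => by rw [IsometryEquiv.mul_apply, hb', hb, add_assoc]⟩
  inv_mem' := by
    intro a ha γ hγ
    obtain ⟨b, hb⟩ := ha γ hγ
    refine ⟨-b, fun t => a.injective ?_⟩
    rw [IsometryEquiv.apply_inv_self, hb, neg_add_cancel_right]

theorem mem_TrG {a : X ≃ᵢ X} :
    a ∈ TrG X ↔ ∀ γ : ℝ → X, CG γ → ∃ b, ∀ t, a (γ t) = γ (t + b) := Iff.rfl

end Vale.Agent.P216
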