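import Vale.Agent.P216B.Basic
import Vale.Agent.P216.Tra

/-! P216B FlowA (TASK, helper names start with flowa_).
flow_trans: P = {b | ∃ t, ∀ s, ψ t (γ s) = γ (s + b)} is closed under negation and multiples.  If b0 ∉ P then for every η0 > 0 there is
η ∈ Ioc 0 η0 with η ∉ P, -η ∉ P (η = |b0| / m; b0 ≠ 0).  In the product space ℝ → X let T b = fun s => γ (s + b) (continuous, lg_cont,
continuous_pi), Ψ t = fun s => ψ t (γ s), A1 = T '' Icc (-η) η, A2 = T '' {b ∈ Icc 0 τ | ∀ q, (∀ s, γ (s + q) = γ s) → η ≤ |b - q|}; both are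
compact, so closed; range Ψ ⊆ A1 ∪ A2 (move b into Icc 0 τ by the period τ); a point T b = T b' of A1 ∩ A2 has b' - b a period, so
|b| = η, and is not in range Ψ.  isPreconnected_iff_subset_of_disjoint_closed and Ψ 0 = T 0 give range Ψ ⊆ A1, so
dist (ψ t (γ 0)) (γ 0) ≤ a η for η ≤ δ; η → 0 contradicts hne.
flow_triv: the range of t ↦ ψ t x is finite and preconnected (IsPreconnected.constant_of_mapsTo / Set.Finite.isDiscrete /
IsPreconnected.subsingleton after Finite.isTotallyDisconnected ..), or: some m ≥ 1 kills the finite group, e t = e (t / m) ^ m.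
flow_half: Z = {t | ∀ x, ψ t x = x} is a closed additive subgroup, not dense; AddSubgroup.dense_or_cyclic gives Z = closure {L}
(AddSubgroup.mem_closure_singleton), L ≠ 0, take L / 2. -/

open Set Filter Topology

noncomputable section

namespace Vale.Agent.P216

variable {X : Type} [MetricSpace X]

theorem flowa_small {ψ : ℝ → X → X} (hψ : MFlow ψ) {γ : ℝ → X} (hc : Continuous γ) {τ η : ℝ}
    (hτ : 0 < τ) (hper : ∀ t, γ (t + τ) = γ t) (hη : 0 ≤ η)
    (h : ∀ t, ∃ b, ∀ s, ψ t (γ s) = γ (s + b))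
    (hP : ∀ b, |b| = η → ¬ ∃ t, ∀ s, ψ t (γ s) = γ (s + b)) (t : ℝ) :
    ∃ b, |b| ≤ η ∧ ψ t (γ 0) = γ b := by
  let T : ℝ → ℝ → X := fun b s => γ (s + b)
  let Ψ : ℝ → ℝ → X := fun t s => ψ t (γ s)
  let B : Set ℝ := Icc 0 τ ∩ ⋂ q ∈ {q | ∀ s, γ (s + q) = γ s}, {b | η ≤ |b - q|}
  have hT : Continuous T := continuous_pi fun s => hc.comp (continuous_const.add continuous_id)
  have hΨ : Continuous Ψ := continuous_pi fun s => hψ.cont _
  have hB : IsCompact B := isCompact_Icc.inter_right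
    (isClosed_biInter fun q _ => isClosed_le continuous_const (by fun_prop))
  have hp : Function.Periodic γ τ := hper
  have h1 : range Ψ ⊆ T '' Icc (-η) η ∪ T '' B := by
    rintro _ ⟨t, rfl⟩
    obtain ⟨b, hb⟩ := h t
    have hm := toIcoMod_mem_Ico hτ 0 b
    have e : Ψ t = T (toIcoMod hτ 0 b) := by
      funext s
      show ψ t (γ s) = γ (s + toIcoMod hτ 0 b)
      rw [hb, toIcoMod, ← add_sub_assoc, hp.sub_zsmul_eq]
    by_cases k : ∀ q, (∀ s, γ (s + q) = γ s) → η ≤ |toIcoMod hτ 0 b - q|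
    · refine Or.inr ⟨_, ⟨⟨hm.1, ?_⟩, mem_iInter₂.2 k⟩, e.symm⟩
      simpa using hm.2.le
    · obtain ⟨q, hq⟩ := not_forall.1 k
      obtain ⟨hq, hq'⟩ := Classical.not_imp.1 hq
      refine Or.inl ⟨toIcoMod hτ 0 b - q, abs_le.1 (not_le.1 hq').le, ?_⟩
      rw [e]
      funext s
      show γ (s + (toIcoMod hτ 0 b - q)) = γ (s + toIcoMod hτ 0 b)
      rw [← hq, add_assoc, sub_add_cancel]
  have h2 : range Ψ ∩ (T '' Icc (-η) η ∩ T '' B) = ∅ := by
    refine eq_empty_of_forall_notMem ?_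
    rintro _ ⟨⟨t, rfl⟩, ⟨b, hb, e⟩, b', hb', e'⟩
    have hq : ∀ s, γ (s + (b' - b)) = γ s := fun s => by
      have e1 : γ (s - b + b') = γ (s - b + b) := (congrFun e' (s - b)).trans (congrFun e (s - b)).symm
      rw [sub_add_cancel] at e1
      rw [← e1]
      exact congrArg γ (by ring)
    have h3 : η ≤ |b' - (b' - b)| := mem_iInter₂.1 hb'.2 _ hq
    rw [sub_sub_cancel] at h3
    exact hP b (le_antisymm (abs_le.2 hb) h3) ⟨t, fun s => (congrFun e s).symm⟩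
  have h0 : Ψ 0 ∈ T '' Icc (-η) η :=
    ⟨0, ⟨by linarith, hη⟩, funext fun s => by
      show γ (s + 0) = ψ 0 (γ s)
      rw [add_zero, hψ.zero]⟩
  rcases isPreconnected_iff_subset_of_disjoint_closed.1 (isPreconnected_range hΨ) _ _
    (isCompact_Icc.image hT).isClosed (hB.image hT).isClosed h1 h2 with k | k
  · obtain ⟨b, hb, e⟩ := k ⟨t, rfl⟩
    refine ⟨b, abs_le.2 hb, ?_⟩
    have e1 : γ (0 + b) = ψ t (γ 0) := congrFun e 0
    rw [← e1, zero_add]
  · exact absurd h2 (Set.Nonempty.ne_empty ⟨Ψ 0, ⟨0, rfl⟩, h0, k ⟨0, rfl⟩⟩)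

theorem flow_trans {ψ : ℝ → X → X} (hψ : MFlow ψ) {γ : ℝ → X} (hγ : CG γ)
    (h : ∀ t, ∃ b, ∀ s, ψ t (γ s) = γ (s + b)) (hne : ∃ t, ψ t (γ 0) ≠ γ 0) (b : ℝ) :
    ∃ t, ∀ s, ψ t (γ s) = γ (s + b) := by
  obtain ⟨⟨a, a0, hl⟩, τ, hτ, hper⟩ := hγ
  have hc := lg_cont hl
  obtain ⟨δ, h0, hδ⟩ := hl
  obtain ⟨t0, ht0⟩ := hne
  let P : AddSubgroup ℝ :=
    { carrier := {b | ∃ t, ∀ s, ψ t (γ s) = γ (s + b)}
      add_mem' := by
        rintro x y ⟨t, ht⟩ ⟨t', ht'⟩
        exact ⟨t' + t, fun s => by rw [hψ.add, ht, ht', add_assoc]⟩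
      zero_mem' := ⟨0, fun s => by rw [hψ.zero, add_zero]⟩
      neg_mem' := by
        rintro x ⟨t, ht⟩
        refine ⟨-t, fun s => ?_⟩
        have e := ht (s + -x)
        rw [neg_add_cancel_right] at e
        rw [← e, ← hψ.add, neg_add_cancel, hψ.zero] }
  by_contra hb
  have hb' : b ∉ P := hb
  have hd : 0 < dist (ψ t0 (γ 0)) (γ 0) := dist_pos.2 ht0
  have hm0 : 0 < min δ (dist (ψ t0 (γ 0)) (γ 0) / (2 * a)) := lt_min h0 (by positivity)
  obtain ⟨m, hm⟩ := exists_nat_ge (|b| / min δ (dist (ψ t0 (γ 0)) (γ 0) / (2 * a)))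
  have hη : |b| / (m + 1) ≤ min δ (dist (ψ t0 (γ 0)) (γ 0) / (2 * a)) := by
    rw [div_le_iff₀ hm0] at hm
    rw [div_le_iff₀ (by positivity)]
    nlinarith
  obtain ⟨c, hc1, hc2⟩ := flowa_small hψ hc hτ hper (η := |b| / (m + 1)) (by positivity) h
    (fun c hc1 hc2 => by
      have h1 : |c| ∈ P := abs_mem_iff.2 hc2
      have h2 := P.nsmul_mem h1 (m + 1)
      rw [hc1, nsmul_eq_mul, Nat.cast_succ, mul_div_cancel₀ _ (by positivity)] at h2
      exact hb' (abs_mem_iff.1 h2)) t0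
  have h3 := hδ c 0 (by rw [sub_zero]; exact hc1.trans (hη.trans (min_le_left _ _)))
  have h4 := hc1.trans (hη.trans (min_le_right _ _))
  rw [sub_zero, ← hc2] at h3
  rw [le_div_iff₀ (by positivity)] at h4
  nlinarith

theorem flow_triv {ψ : ℝ → X → X} (hψ : MFlow ψ) (h : (range hψ.e).Finite) (t : ℝ) (x : X) :
    ψ t x = x := by
  have h1 := isPreconnected_univ.constant_of_mapsTo (h.image fun a => a x).isDiscrete
    (hψ.cont x).continuousOn (fun s _ => ⟨hψ.e s, ⟨s, rfl⟩, rfl⟩) (mem_univ t) (mem_univ 0)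
  exact h1.trans (hψ.zero x)

theorem flow_half {ψ : ℝ → X → X} (hψ : MFlow ψ) (hne : ∃ t x, ψ t x ≠ x) {T : ℝ} (hT : T ≠ 0)
    (h : ∀ x, ψ T x = x) : ∃ t, (∀ x, ψ t (ψ t x) = x) ∧ ∃ x, ψ t x ≠ x := by
  let Z : AddSubgroup ℝ :=
    { carrier := {t | ∀ x, ψ t x = x}
      add_mem' := fun {s t} hs ht x => by rw [hψ.add, ht, hs]
      zero_mem' := hψ.zero
      neg_mem' := fun {t} ht x => by
        conv_lhs => rw [← ht x]
        rw [← hψ.add, neg_add_cancel, hψ.zero] }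
  rcases Z.dense_or_cyclic with k | ⟨L, k⟩
  · obtain ⟨t, x, hx⟩ := hne
    have h1 : IsClosed {t | ψ t x = x} := isClosed_eq (hψ.cont x) continuous_const
    exact absurd (closure_minimal (fun s (hs : s ∈ Z) => hs x) h1 (k t)) hx
  · have hL : L ∈ Z := k ▸ AddSubgroup.subset_closure rfl
    have hL0 : L ≠ 0 := by
      rintro rfl
      have h1 : T ∈ Z := h
      rw [k, AddSubgroup.mem_closure_singleton] at h1
      obtain ⟨n, hn⟩ := h1
      exact hT (by rw [← hn, smul_zero])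
    refine ⟨L / 2, fun x => by rw [← hψ.add, add_halves, hL x], ?_⟩
    by_contra hx
    have h1 : L / 2 ∈ Z := fun x => by_contra fun e => hx ⟨x, e⟩
    rw [k, AddSubgroup.mem_closure_singleton] at h1
    obtain ⟨n, hn⟩ := h1
    rw [zsmul_eq_mul] at hn
    have h2 : ((2 * n : ℤ) : ℝ) = (1 : ℤ) := by
      refine mul_right_cancel₀ hL0 ?_
      push_cast
      linarith
    have h3 : 2 * n = 1 := by exact_mod_cast h2
    omega

end Vale.Agent.P216
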