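import Vale.Agent.P216B.Basic

/-! P216B IsoC (TASK, helper names start with isoc_).
cluster: U = hyperfilter ℕ (Nat.hyperfilter_le_atTop), f x = the limit of u n x along U, f' x = the limit of (u n)⁻¹ x
(isCompact_univ.ultrafilter_le_nhds (U.map ..), choose).  f is an isometry (tendsto_nhds_unique); f (f' x) = x since
dist (u n (f' x)) x = dist (f' x) ((u n)⁻¹ x) → 0, and f is injective, so f is an IsometryEquiv.  Uniformity: a finite η / 3 net of X
(Metric.totallyBounded_iff or finite_cover_balls_of_compact), Filter.eventually_all_finite, Eventually.exists.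
expand: X empty is trivial.  ε = min ε0 (ρ / 2).  Let x maximise D = dist x (a x) (IsCompact.exists_isMaxOn), γ from Ext for x, y = a x.
For h ∈ Icc 0 1 and z = γ (-h): dist z y = (1 + h) D ≤ ρ, and S.uniq z y with t = 1 / (1 + h) applies both to a z (dist z (a z) ≤ D,
dist (a z) y = dist z x = h D) and to γ (1 - h), so a (γ (-h)) = γ (1 - h).  NB for a ∘ γ and s ↦ γ (s + 1) (LG with δ = 2, speed D) at
t₀ = -1/2 gives a (γ 1) = γ 2, so dist x (a (a x)) = 2 D ≤ r. -/

open Set Filter Topology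

noncomputable section

namespace Vale.Agent.P216

variable {X : Type} [MetricSpace X]

theorem cluster [CompactSpace X] (u : ℕ → X ≃ᵢ X) :
    ∃ a : X ≃ᵢ X, ∀ η > 0, ∀ N : ℕ, ∃ n ≥ N, ∀ x, dist (a x) (u n x) ≤ η := by
  have hl : ∀ g : ℕ → X, ∃ y, Tendsto g (hyperfilter ℕ) (𝓝 y) := fun g => by
    obtain ⟨y, -, hy⟩ := isCompact_univ.ultrafilter_le_nhds ((hyperfilter ℕ).map g) (by simp)
    exact ⟨y, hy⟩
  choose f hf using fun x => hl fun n => u n x
  choose f' hf' using fun x => hl fun n => (u n).symm x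
  have hi : Isometry f := Isometry.of_dist_eq fun x y => by
    have h1 := (hf x).dist (hf y)
    simp only [IsometryEquiv.dist_eq] at h1
    exact tendsto_nhds_unique h1 tendsto_const_nhds
  have hs : Function.Surjective f := fun x => ⟨f' x, by
    have h1 := (hf (f' x)).dist (tendsto_const_nhds (x := x))
    have h2 := (tendsto_const_nhds (x := f' x)).dist (hf' x)
    have e : (fun n => dist (u n (f' x)) x) = fun n => dist (f' x) ((u n).symm x) :=
      funext fun n => by rw [← (u n).dist_eq (f' x), IsometryEquiv.apply_symm_apply]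
    rw [e] at h1
    rw [dist_self] at h2
    exact dist_eq_zero.1 (tendsto_nhds_unique h1 h2)⟩
  refine ⟨⟨Equiv.ofBijective f ⟨hi.injective, hs⟩, hi⟩, fun η hη N => ?_⟩
  obtain ⟨t, -, ht, hc⟩ := finite_cover_balls_of_compact (isCompact_univ (X := X)) (e := η / 3)
    (by positivity)
  have h1 : ∀ᶠ n in (hyperfilter ℕ : Filter ℕ), ∀ y ∈ t, dist (u n y) (f y) < η / 3 :=
    (eventually_all_finite ht).2 fun y _ => Metric.tendsto_nhds.1 (hf y) _ (by positivity)
  have h2 : ∀ᶠ n in (hyperfilter ℕ : Filter ℕ), N ≤ n :=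
    Nat.hyperfilter_le_atTop (eventually_ge_atTop N)
  obtain ⟨n, h3, h4⟩ := (h1.and h2).exists
  refine ⟨n, h4, fun x => ?_⟩
  obtain ⟨y, hy, hx⟩ := mem_iUnion₂.1 (hc (mem_univ x))
  change dist (f x) (u n x) ≤ η
  have h5 := dist_triangle4 (f x) (f y) (u n y) (u n x)
  have h6 := h3 y hy
  rw [Metric.mem_ball] at hx
  rw [hi.dist_eq, (u n).dist_eq, dist_comm y x, dist_comm (f y)] at h5
  linarith

theorem expand [CompactSpace X] (S : Seg X) (hNB : NB X) (hX : Ext X) : Dbl X := by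
  obtain ⟨ε, hε, hE⟩ := hX
  refine ⟨min ε (S.ρ / 2), lt_min hε (half_pos S.pos), fun a r ha hr x₀ => ?_⟩
  obtain ⟨x, -, hx⟩ := isCompact_univ.exists_isMaxOn ⟨x₀, mem_univ _⟩
    (f := fun x => dist x (a x)) (continuous_id.dist a.continuous).continuousOn
  have hx' : ∀ z, dist z (a z) ≤ dist x (a x) := fun z => hx (mem_univ z)
  obtain ⟨γ, h0, h1, hγ⟩ := hE x (a x) ((ha x).trans (min_le_left _ _))
  have hD : dist x (a x) ≤ S.ρ / 2 := (ha x).trans (min_le_right _ _)
  have hD0 : 0 ≤ dist x (a x) := dist_nonneg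
  have hγ' : ∀ s t, s ≤ t → t - s ≤ 2 → dist (γ s) (γ t) = dist x (a x) * (t - s) := by
    intro s t h2 h3
    have e : |s - t| = t - s := by rw [abs_sub_comm, abs_of_nonneg (sub_nonneg.2 h2)]
    rw [hγ s t (by rwa [e]), e]
  have key : ∀ s : ℝ, -1 ≤ s → s ≤ 0 → a (γ s) = γ (s + 1) := by
    intro s h2 h3
    have h4 : 0 < 1 - s := by linarith
    have e1 : dist (γ s) (γ 1) = dist x (a x) * (1 - s) := hγ' s 1 (by linarith) (by linarith)
    have h5 : dist (γ s) (γ 1) ≤ S.ρ := by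
      rw [e1]
      nlinarith
    have h6 : 1 / (1 - s) ∈ Icc (0 : ℝ) 1 := ⟨by positivity, (div_le_one h4).2 (by linarith)⟩
    have e2 : 1 / (1 - s) * dist (γ s) (γ 1) = dist x (a x) := by
      rw [e1]
      field_simp
    have e3 : (1 - 1 / (1 - s)) * dist (γ s) (γ 1) = dist x (a x) * (0 - s) := by
      rw [sub_mul, e2, e1]
      ring
    rw [S.uniq _ _ h5 _ h6 (a (γ s)) (by rw [e2]; exact hx' _) ?_,
      ← S.uniq _ _ h5 _ h6 (γ (s + 1)) ?_ ?_]
    · rw [e2, hγ' s (s + 1) (by linarith) (by linarith)]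
      exact le_of_eq (by ring)
    · rw [e3, hγ' (s + 1) 1 (by linarith) (by linarith)]
      exact le_of_eq (by ring)
    · rw [e3, h1, a.dist_eq, ← hγ' s 0 h3 (by linarith), h0]
  have h2 := hNB (fun s => a (γ s)) (fun s => γ (s + 1)) (dist x (a x))
    ⟨2, two_pos, fun s t h => by rw [a.dist_eq, hγ s t h]⟩
    ⟨2, two_pos, fun s t h => by
      have e : s + 1 - (t + 1) = s - t := by ring
      rw [hγ _ _ (by rwa [e]), e]⟩ (-1 / 2) (by
      filter_upwards [Icc_mem_nhds (show (-1 : ℝ) < -1 / 2 by norm_num)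
        (show (-1 / 2 : ℝ) < 0 by norm_num)] with s hs
      exact key s hs.1 hs.2)
  have h3 : a (γ 1) = γ (1 + 1) := congrFun h2 1
  have h4 := hr x
  have h5 := hγ' 0 (1 + 1) (by norm_num) (by norm_num)
  rw [← h3, h0, h1] at h5
  rw [IsometryEquiv.mul_apply, h5] at h4
  linarith [hx' x₀]

end Vale.Agent.P216
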