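import Vale.Agent.P216B.IsoC

/-! P216B IsoI (TASK, helper names start with isoi_).  A closed group of isometries without involution is finite.
Step A: there is δ > 0 with a ∈ H → Sm δ (a * a) → Sm ε a.  Otherwise take u n ∈ H with Sm (1 / (n + 1)) (u n * u n), ¬ Sm ε (u n); the
cluster point a is in H (Cl), a * a = 1 (dist x (a (a x)) ≤ 2 η + 1 / (n + 1)), so a = 1, and then Sm ε (u n) for some n.
Step B (induction on k): a ∈ H, r ≤ δ, Sm r (a ^ 2 ^ k) → Sm (r / 2 ^ k) a   (a ^ 2 ^ (k + 1) = (a * a) ^ 2 ^ k, Sm is monotone in r).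
Step C: a ∈ H, Sm (δ / 2) a → a = 1.  Show by induction on i that Sm (δ / 2 ^ (i + 1)) a implies Sm (δ / 2 ^ (i + 2) + δ / 2 ^ (l + 1)) a for all
large l, or directly with D = the least r with Sm r a (maximum of the displacement): the cluster point of k ↦ a ^ 2 ^ k gives l ≥ l0 ≥ 1 and
j ≥ 1 with Sm δ (a ^ (2 ^ (l + j) - 2 ^ l)) = Sm δ ((a ^ (2 ^ j - 1)) ^ 2 ^ l), so Sm (δ / 2 ^ l) (a ^ (2 ^ j - 1)), so
Sm (D + δ / 2 ^ l) (a ^ 2 ^ j), so D ≤ (D + δ / 2 ^ l) / 2 ^ j ≤ (D + δ / 2 ^ l) / 2 and D ≤ δ / 2 ^ l0 for every l0.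
Step D: if H is infinite take an injective sequence in H (Set.Infinite.natEmbedding); two terms n < m are δ / 4 close to the cluster point,
so (u n)⁻¹ * u m ∈ H is Sm (δ / 2), hence 1. -/

open Set Filter Topology

noncomputable section

namespace Vale.Agent.P216

variable {X : Type} [MetricSpace X]

theorem isoi_mono {r r' : ℝ} {a : X ≃ᵢ X} (h : Sm r a) (h' : r ≤ r') : Sm r' a :=
  fun x => (h x).trans h'

theorem isoi_close {η : ℝ} {a b c : X ≃ᵢ X} (h : ∀ x, dist (c x) (a x) ≤ η)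
    (h' : ∀ x, dist (c x) (b x) ≤ η) : Sm (2 * η) (a⁻¹ * b) := fun x => by
  rw [← a.dist_eq, IsometryEquiv.mul_apply, IsometryEquiv.apply_inv_self]
  linarith [dist_triangle_left (a x) (b x) (c x), h x, h' x]

theorem isoi_mul {r s : ℝ} {a b : X ≃ᵢ X} (h : Sm r a) (h' : Sm s b) : Sm (r + s) (a * b) :=
  fun x => by
    rw [IsometryEquiv.mul_apply]
    linarith [dist_triangle x (a x) (a (b x)), a.dist_eq x (b x), h x, h' x]

theorem isoi_A [CompactSpace X] {H : Subgroup (X ≃ᵢ X)} (hH : Cl H)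
    (hno : ∀ a ∈ H, a * a = 1 → a = 1) {ε : ℝ} (hε : 0 < ε) :
    ∃ δ > 0, ∀ a ∈ H, Sm δ (a * a) → Sm ε a := by
  by_contra hc
  push Not at hc
  choose u hu hu1 hu2 using fun n : ℕ => hc (1 / ((n : ℝ) + 1)) Nat.one_div_pos_of_nat
  obtain ⟨a, ha⟩ := cluster u
  have h1 : a ∈ H := hH a fun η hη => by
    obtain ⟨n, -, hn⟩ := ha η hη 0
    exact ⟨u n, hu n, hn⟩
  have h2 : a * a = 1 := by
    refine IsometryEquiv.ext fun x => (dist_le_zero.1 (le_of_forall_pos_le_add fun η hη => ?_)).symm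
    obtain ⟨N, hN⟩ := exists_nat_one_div_lt (show 0 < η / 3 by positivity)
    obtain ⟨n, hn, hn'⟩ := ha (η / 3) (by positivity) N
    have h3 : 1 / ((n : ℝ) + 1) ≤ 1 / ((N : ℝ) + 1) := Nat.one_div_le_one_div hn
    have h4 : dist x (u n (u n x)) ≤ 1 / ((n : ℝ) + 1) := hu1 n x
    show dist x (a (a x)) ≤ _
    linarith [dist_triangle4 x (u n (u n x)) (u n (a x)) (a (a x)), (u n).dist_eq (u n x) (a x),
      hn' x, hn' (a x), dist_comm (a x) (u n x), dist_comm (a (a x)) (u n (a x))]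
  obtain ⟨n, -, hn⟩ := ha ε hε 0
  rw [hno a h1 h2] at hn
  exact hu2 n hn

theorem isoi_B {H : Subgroup (X ≃ᵢ X)} {ε δ r : ℝ}
    (hD : ∀ (a : X ≃ᵢ X) (r : ℝ), Sm ε a → Sm r (a * a) → Sm (r / 2) a)
    (hA : ∀ a ∈ H, Sm δ (a * a) → Sm ε a) (h0 : 0 ≤ r) (hr : r ≤ δ) (k : ℕ) :
    ∀ a ∈ H, Sm r (a ^ 2 ^ k) → Sm (r / 2 ^ k) a := by
  induction k with
  | zero => intro a _ h; simpa using h
  | succ k ih =>
    intro a ha h
    rw [pow_succ', pow_mul, sq] at h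
    have h1 := ih _ (H.mul_mem ha ha) h
    have h2 : r / 2 ^ k ≤ δ := (div_le_self h0 (one_le_pow₀ one_le_two)).trans hr
    rw [pow_succ, ← div_div]
    exact hD a _ (hA a ha (isoi_mono h1 h2)) h1

theorem isoi_C [CompactSpace X] {H : Subgroup (X ≃ᵢ X)} {ε δ : ℝ} (hδ : 0 < δ)
    (hD : ∀ (a : X ≃ᵢ X) (r : ℝ), Sm ε a → Sm r (a * a) → Sm (r / 2) a)
    (hA : ∀ a ∈ H, Sm δ (a * a) → Sm ε a) {a : X ≃ᵢ X} (ha : a ∈ H) (h : Sm (δ / 2) a) : a = 1 := by
  have key : ∀ D, 0 < D → D ≤ δ / 2 → Sm D a → Sm (3 / 4 * D) a := fun D h0 h1 h2 => by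
    obtain ⟨l, hl⟩ := pow_unbounded_of_one_lt (2 * δ / D) (one_lt_two (α := ℝ))
    obtain ⟨c, hc⟩ := cluster fun k => a ^ 2 ^ k
    obtain ⟨n, hn, hn'⟩ := hc (δ / 2) (by positivity) l
    obtain ⟨m, hm, hm'⟩ := hc (δ / 2) (by positivity) (n + 1)
    obtain ⟨j, rfl⟩ := Nat.exists_eq_add_of_le hm
    obtain ⟨q, hq⟩ : ∃ q, 2 ^ (j + 1) = q + 1 := ⟨2 ^ (j + 1) - 1, by have := Nat.one_le_two_pow (n := j + 1); omega⟩
    have h3 := isoi_close hn' hm'
    have h4 : (a ^ 2 ^ n)⁻¹ * a ^ 2 ^ (n + 1 + j) = (a ^ q) ^ 2 ^ n := by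
      rw [inv_mul_eq_iff_eq_mul, ← pow_mul, ← pow_add, show n + 1 + j = n + (j + 1) by ring, pow_add,
        hq]
      exact congrArg (a ^ ·) (by ring)
    rw [h4, show 2 * (δ / 2) = δ by ring] at h3
    have h5 := isoi_B hD hA hδ.le le_rfl n _ (H.pow_mem ha q) h3
    have h6 : δ / 2 ^ n ≤ D / 2 := by
      have h7 : (2 : ℝ) ^ l ≤ 2 ^ n := pow_le_pow_right₀ one_le_two hn
      rw [div_lt_iff₀ h0] at hl
      rw [div_le_iff₀ (by positivity)]
      nlinarith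
    have h8 := isoi_mul (isoi_mono h5 h6) h2
    rw [← pow_succ, ← hq] at h8
    refine isoi_mono (isoi_B hD hA (by positivity) (by linarith) (j + 1) a ha h8) ?_
    have h9 : (2 : ℝ) ^ 1 ≤ 2 ^ (j + 1) := pow_le_pow_right₀ one_le_two (by omega)
    rw [div_le_iff₀ (by positivity)]
    nlinarith
  have h1 : ∀ i : ℕ, Sm ((3 / 4) ^ i * (δ / 2)) a := fun i => by
    induction i with
    | zero => simpa using h
    | succ i ih =>
      rw [pow_succ', mul_assoc]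
      exact key _ (by positivity) (mul_le_of_le_one_left (by positivity)
        (pow_le_one₀ (by norm_num) (by norm_num))) ih
  refine IsometryEquiv.ext fun x => (dist_le_zero.1 ?_).symm
  have h2 := (tendsto_pow_atTop_nhds_zero_of_lt_one (show (0 : ℝ) ≤ 3 / 4 by norm_num)
    (by norm_num)).mul_const (δ / 2)
  rw [zero_mul] at h2
  exact ge_of_tendsto' h2 fun i => h1 i x

theorem fin_of_no_inv [CompactSpace X] (hD : Dbl X) {H : Subgroup (X ≃ᵢ X)} (hH : Cl H)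
    (hno : ∀ a ∈ H, a * a = 1 → a = 1) : (H : Set (X ≃ᵢ X)).Finite := by
  obtain ⟨ε, hε, hD⟩ := hD
  obtain ⟨δ, hδ, hA⟩ := isoi_A hH hno hε
  by_contra hc
  let u := Set.Infinite.natEmbedding _ hc
  obtain ⟨c, hc'⟩ := cluster fun n => (u n).1
  obtain ⟨n, -, hn⟩ := hc' (δ / 4) (by positivity) 0
  obtain ⟨m, hm, hm'⟩ := hc' (δ / 4) (by positivity) (n + 1)
  have h1 := isoi_C hδ hD hA (H.mul_mem (H.inv_mem (u n).2) (u m).2)
    (isoi_mono (isoi_close hn hm') (by linarith))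
  have h2 : n = m := u.injective (Subtype.ext (inv_mul_eq_one.1 h1))
  omega

end Vale.Agent.P216
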